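import Mathlib
import Vale.Agent.P243.CoplanarE

open MeasureTheory Set

namespace Vale.Agent.Results.P243.CoplanarAxes

variable {E : Type} [NormedAddCommGroup E] [InnerProductSpace ℝ E] [FiniteDimensional ℝ E]
  [MeasurableSpace E] [BorelSpace E]

/-- the plane through the origin orthogonal to `u` -/
noncomputable def plane (u : E) : Submodule ℝ E := (ℝ ∙ u)ᗮ

/-- planar Lebesgue measure (area) of a subset of the plane orthogonal to `u` -/
noncomputable def area {u : E} (B : Set (plane u)) : ENNReal := volume B

/-- area of the orthogonal projection of `K` onto the plane orthogonal to `u` -/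
noncomputable def shadowArea (K : Set E) (u : E) : ENNReal :=
  area ((plane u).orthogonalProjectionOnto '' K)

/-- the cylinder `B + ℝ u` with base `B` in the plane orthogonal to `u` -/
def cylinder {u : E} (B : Set (plane u)) : Set E :=
  {x | ∃ b ∈ B, ∃ t : ℝ, x = (b : E) + t • u}

/-- Bang's half-area inequality for coverings with coplanar axes.  Let a convex body `K` of a
three-dimensional Euclidean space be covered by finitely many cylinders `B i + ℝ (u i)` (`u i` a
unit vector, `B i` a measurable subset of the plane orthogonal to `u i`) whose axes are all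
parallel to one plane (all `u i` are orthogonal to a unit vector `e₀`); the number of different
axis directions is arbitrary.  Then the total base area is at least half of the least area of an
orthogonal projection of `K` onto a plane; it is even at least half of the least area of a
projection of `K` along a direction orthogonal to `e₀`. -/
theorem result (hE : Module.finrank ℝ E = 3) {ι : Type} [Fintype ι] (K : Set E)
    (hc : IsCompact K) (hv : Convex ℝ K) (hi : (interior K).Nonempty)
    (u : ι → E) (hu : ∀ i, ‖u i‖ = 1)
    (B : (i : ι) → Set (plane (u i))) (hB : ∀ i, MeasurableSet (B i))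
    (hcov : K ⊆ ⋃ i, cylinder (B i))
    (e₀ : E) (he₀ : ‖e₀‖ = 1) (hperp : ∀ i, inner ℝ (u i) e₀ = 0) :
    1 / 2 * (⨅ (e : E) (_ : ‖e‖ = 1), shadowArea K e) ≤ ∑ i, area (B i) ∧
    1 / 2 * (⨅ (e : E) (_ : ‖e‖ = 1 ∧ inner ℝ e e₀ = 0), shadowArea K e) ≤ ∑ i, area (B i) := by
  have main : 1 / 2 * (⨅ (e : E) (_ : ‖e‖ = 1 ∧ inner ℝ e e₀ = 0), shadowArea K e)
      ≤ ∑ i, area (B i) :=
    Vale.Agent.P243.coplanar_family hE K hc hv (hi.mono interior_subset) e₀ he₀ u hu hperp B hB
      (fun x hx => by
        obtain ⟨i, hxi⟩ := mem_iUnion.mp (hcov hx)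
        exact ⟨i, hxi⟩)
  refine ⟨le_trans (mul_le_mul_right ?_ _) main, main⟩
  exact le_iInf₂ fun e he => iInf₂_le e he.1

end Vale.Agent.Results.P243.CoplanarAxes
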