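import Mathlib
import Vale.Agent.P243.Coord

open MeasureTheory Set

namespace Vale.Agent.Results.P243.PerpendicularAxes

/-- Two cylinders with perpendicular axes (the second and the third coordinate axis of `ℝ³`)
covering a convex body have directionwise relative area at least `1/2`. -/
theorem result (K : Set (ℝ × ℝ × ℝ)) (hc : IsCompact K) (hv : Convex ℝ K)
    (hi : (interior K).Nonempty)
    (B₁ B₂ : Set (ℝ × ℝ)) (m1 : MeasurableSet B₁) (m2 : MeasurableSet B₂)
    (hcov : ∀ z a b : ℝ, (z, a, b) ∈ K → (z, b) ∈ B₁ ∨ (z, a) ∈ B₂) :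
    1 / 2 ≤ volume B₁ / volume ((fun p : ℝ × ℝ × ℝ => (p.1, p.2.2)) '' K)
      + volume B₂ / volume ((fun p : ℝ × ℝ × ℝ => (p.1, p.2.1)) '' K) := by
  have o1 : IsOpenMap (fun p : ℝ × ℝ × ℝ => (p.1, p.2.2)) :=
    IsOpenMap.prodMap IsOpenMap.id isOpenMap_snd
  have o2 : IsOpenMap (fun p : ℝ × ℝ × ℝ => (p.1, p.2.1)) :=
    IsOpenMap.prodMap IsOpenMap.id isOpenMap_fst
  have p1 : 0 < volume ((fun p : ℝ × ℝ × ℝ => (p.1, p.2.2)) '' K) :=
    lt_of_lt_of_le ((o1 _ isOpen_interior).measure_pos volume (hi.image _))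
      (measure_mono (image_mono interior_subset))
  have p2 : 0 < volume ((fun p : ℝ × ℝ × ℝ => (p.1, p.2.1)) '' K) :=
    lt_of_lt_of_le ((o2 _ isOpen_interior).measure_pos volume (hi.image _))
      (measure_mono (image_mono interior_subset))
  exact Vale.Agent.P243.coord_two_cylinders K hc hv p1 p2 B₁ B₂ m1 m2
    (fun p hp => hcov p.1 p.2.1 p.2.2 hp)

end Vale.Agent.Results.P243.PerpendicularAxes
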