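import Mathlib
import Vale.Agent.P243.Euclid

open MeasureTheory Set

namespace Vale.Agent.Results.P243.TwoDirections

variable {E : Type} [NormedAddCommGroup E] [InnerProductSpace ℝ E] [FiniteDimensional ℝ E]
  [MeasurableSpace E] [BorelSpace E]

/-- the plane through the origin orthogonal to `u` -/
noncomputable def plane (u : E) : Submodule ℝ E := (ℝ ∙ u)ᗮ

/-- planar Lebesgue measure (area) of a subset of the plane orthogonal to `u` -/
noncomputable def area {u : E} (B : Set (plane u)) : ENNReal := volume B

/-- area of the orthogonal projection of `K` onto the plane orthogonal to `u` -/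
noncomputable def shadowArea (K : Set E) (u : E) : ENNReal :=
  area ((plane u).orthogonalProjectionOnto '' K)

/-- the cylinder `B + ℝ u` with base `B` in the plane orthogonal to `u` -/
def cylinder {u : E} (B : Set (plane u)) : Set E :=
  {x | ∃ b ∈ B, ∃ t : ℝ, x = (b : E) + t • u}

/-- Let a convex body `K` of a three-dimensional Euclidean space be covered by finitely many
cylinders `B i + ℝ (u i)` (`u i` a unit vector, `B i` a measurable subset of the plane orthogonal
to `u i`) whose axes are parallel to at most two lines `ℝ v`, `ℝ w`.  Then the directionwise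
relative area of the covering is at least `1/2`, and the total base area is at least half of the
least area of an orthogonal projection of `K` onto a plane. -/
theorem result (hE : Module.finrank ℝ E = 3) {ι : Type} [Fintype ι] (K : Set E)
    (hc : IsCompact K) (hv : Convex ℝ K) (hi : (interior K).Nonempty)
    (u : ι → E) (hu : ∀ i, ‖u i‖ = 1)
    (B : (i : ι) → Set (plane (u i))) (hB : ∀ i, MeasurableSet (B i))
    (hcov : K ⊆ ⋃ i, cylinder (B i))
    (v w : E) (hdir : ∀ i, ℝ ∙ u i = ℝ ∙ v ∨ ℝ ∙ u i = ℝ ∙ w) :
    1 / 2 ≤ ∑ i, area (B i) / shadowArea K (u i) ∧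
    1 / 2 * (⨅ (e : E) (_ : ‖e‖ = 1), shadowArea K e) ≤ ∑ i, area (B i) :=
  Vale.Agent.P243.family_two_directions hE K hc hv hi u hu B hB
    (fun x hx => by
      obtain ⟨i, hxi⟩ := mem_iUnion.mp (hcov hx)
      exact ⟨i, hxi⟩) v w hdir

end Vale.Agent.Results.P243.TwoDirections
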